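import Vale.Agent.P195.Grow

/-!
# P195: the Auslander-Reiten conjecture for modules with many syzygies of bounded dimension

Let `R` be a finite-dimensional algebra over a field `k` and let `M = N 0` be a finitely generated
`R`-module with `Ext i (M, M) = 0` and `Ext i (M, R) = 0` for all `i ≥ 1`.  Let
`0 → N (n + 1) → P n → N n → 0` be short exact sequences with all `P n` finitely generated
projective (any projective resolution of `M` by finitely generated projective modules, cut into
short exact sequences).  Then `M` is projective or the dimension of the syzygy `N n` tends to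
infinity.  In other words a module with (AR) which has infinitely many syzygies of bounded
dimension, in some resolution by finitely generated projective modules, is projective.
-/

universe u

open CategoryTheory Abelian Filter

theorem Vale.Agent.Results.P195.BoundedSyzygies.result {k R : Type u} [Field k] [Ring R]
    [Algebra k R] [Module.Finite k R] {N P : ℕ → Type u}
    [∀ n, AddCommGroup (N n)] [∀ n, Module R (N n)] [∀ n, Module k (N n)]
    [∀ n, IsScalarTower k R (N n)] [∀ n, AddCommGroup (P n)] [∀ n, Module R (P n)]
    [∀ n, Module.Projective R (P n)] [∀ n, Module.Finite R (P n)]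
    (f : ∀ n, N (n + 1) →ₗ[R] P n) (g : ∀ n, P n →ₗ[R] N n)
    (hf : ∀ n, Function.Injective (f n)) (hg : ∀ n, Function.Surjective (g n))
    (hex : ∀ n, Function.Exact (f n) (g n))
    (hMM : ∀ i : ℕ, 1 ≤ i →
      Subsingleton (Ext.{u} (ModuleCat.of R (N 0)) (ModuleCat.of R (N 0)) i))
    (hMR : ∀ i : ℕ, 1 ≤ i →
      Subsingleton (Ext.{u} (ModuleCat.of R (N 0)) (ModuleCat.of R R) i)) :
    Module.Projective R (N 0) ∨ Tendsto (fun n => Module.finrank k (N n)) atTop atTop := by
  by_cases h : Module.Projective R (N 0)
  · exact Or.inl h
  · exact Or.inr (P195.grow f g hf hg hex hMM hMR h)
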