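import Vale.Agent.P195.Eff

/-!
# P195: modules satisfying (AR) have few syzygies of small dimension

Let `R` be a finite-dimensional algebra over a field `k` and let `M = N 0` be a finitely generated
`R`-module with `Ext i (M, R) = 0` for all `i ≥ 1`, with `Ext 1 (M, M) = 0`, and such that for
every `m ≥ 1` there is `j ≥ 1` with `Ext (j * m) (M, M) = 0` (all this holds under (AR)).  Let
`0 → N (n + 1) → P n → N n → 0` be short exact sequences with all `P n` finitely generated
projective.  Then `M` is projective, or for every `D` the number of the indices `n` such that the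
syzygy `N n` has dimension at most `D` is bounded by an explicit function of `D` and of the
dimension of `R`.
-/

universe u

open CategoryTheory Abelian

theorem Vale.Agent.Results.P195.EffectiveSyzygies.result {k R : Type u} [Field k] [Ring R]
    [Algebra k R] [Module.Finite k R] {N P : ℕ → Type u}
    [∀ n, AddCommGroup (N n)] [∀ n, Module R (N n)] [∀ n, Module k (N n)]
    [∀ n, IsScalarTower k R (N n)] [∀ n, AddCommGroup (P n)] [∀ n, Module R (P n)]
    [∀ n, Module.Projective R (P n)] [∀ n, Module.Finite R (P n)]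
    (f : ∀ n, N (n + 1) →ₗ[R] P n) (g : ∀ n, P n →ₗ[R] N n)
    (hf : ∀ n, Function.Injective (f n)) (hg : ∀ n, Function.Surjective (g n))
    (hex : ∀ n, Function.Exact (f n) (g n))
    (hMR : ∀ i : ℕ, 1 ≤ i →
      Subsingleton (Ext.{u} (ModuleCat.of R (N 0)) (ModuleCat.of R R) i))
    (hMM : Subsingleton (Ext.{u} (ModuleCat.of R (N 0)) (ModuleCat.of R (N 0)) 1))
    (hMM' : ∀ m : ℕ, 1 ≤ m → ∃ j : ℕ, 1 ≤ j ∧
      Subsingleton (Ext.{u} (ModuleCat.of R (N 0)) (ModuleCat.of R (N 0)) (j * m))) :
    Module.Projective R (N 0) ∨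
      ∀ D : ℕ, {n | Module.finrank k (N n) ≤ D}.encard ≤
        ((D * ((D + 1) * (Module.finrank k R * D ^ 2 + 1)) ^ (Module.finrank k R * D ^ 2) : ℕ) :
          ℕ∞) := by
  by_cases h : Module.Projective R (N 0)
  · exact Or.inl h
  · exact Or.inr fun D => P195.eff f g hf hg hex hMM hMR hMM' h D
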